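import Mathlib

set_option linter.unusedSectionVars false
set_option linter.unusedVariables false

namespace Vale.Agent.P102

open Finset

theorem card_near (N D a : ℕ) :
    ((range N).filter (fun b : ℕ => |(b : ℤ) - (a : ℤ)| < (D : ℤ))).card ≤ 2 * D := by
  have hsub : (range N).filter (fun b : ℕ => |(b : ℤ) - (a : ℤ)| < (D : ℤ))
      ⊆ Finset.Ico (a - D) (a + D) := by
    intro b hb
    rw [Finset.mem_filter] at hb
    have h := abs_lt.mp hb.2
    rw [Finset.mem_Ico]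
    constructor <;> omega
  calc _ ≤ (Finset.Ico (a - D) (a + D)).card := Finset.card_le_card hsub
    _ = a + D - (a - D) := Nat.card_Ico _ _
    _ ≤ 2 * D := by omega

theorem cesaro (w : ℤ → ℝ) (hb : ∀ d, w d ≤ 1)
    (hw : ∀ η : ℝ, 0 < η → ∃ D : ℕ, ∀ d : ℤ, (D : ℤ) ≤ |d| → w d ≤ η)
    (η : ℝ) (hη : 0 < η) :
    ∃ N₀ : ℕ, ∀ N : ℕ, N₀ ≤ N →
      ∑ a ∈ range N, ∑ b ∈ range N, w ((b : ℤ) - (a : ℤ)) ≤ η * (N : ℝ) ^ 2 := by
  obtain ⟨D, hD⟩ := hw (η / 2) (by positivity)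
  obtain ⟨N₀, hN₀⟩ := exists_nat_ge (4 * (D : ℝ) / η)
  refine ⟨N₀, fun N hN => ?_⟩
  have hNr : 4 * (D : ℝ) / η ≤ N := hN₀.trans (by exact_mod_cast hN)
  have hNr' : 4 * (D : ℝ) ≤ N * η := by
    rwa [div_le_iff₀ hη] at hNr
  have hrow : ∀ a ∈ range N, ∑ b ∈ range N, w ((b : ℤ) - (a : ℤ)) ≤ 2 * D + N * (η / 2) := by
    intro a _
    calc ∑ b ∈ range N, w ((b : ℤ) - (a : ℤ))
        ≤ ∑ b ∈ range N, ((if |(b : ℤ) - (a : ℤ)| < (D : ℤ) then (1 : ℝ) else 0) + η / 2) := by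
          apply Finset.sum_le_sum
          intro b _
          split_ifs with h
          · have := hb ((b : ℤ) - (a : ℤ)); linarith
          · have := hD ((b : ℤ) - (a : ℤ)) (not_lt.mp h); linarith
      _ = (((range N).filter (fun b : ℕ => |(b : ℤ) - (a : ℤ)| < (D : ℤ))).card : ℝ)
            + N * (η / 2) := by
          rw [Finset.sum_add_distrib, Finset.sum_boole]
          simp
      _ ≤ 2 * D + N * (η / 2) := by
          have := card_near N D a
          have h' : (((range N).filter (fun b : ℕ => |(b : ℤ) - (a : ℤ)| < (D : ℤ))).card : ℝ)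
              ≤ 2 * D := by exact_mod_cast this
          linarith
  calc ∑ a ∈ range N, ∑ b ∈ range N, w ((b : ℤ) - (a : ℤ))
      ≤ ∑ a ∈ range N, (2 * (D : ℝ) + N * (η / 2)) := Finset.sum_le_sum hrow
    _ = N * (2 * (D : ℝ) + N * (η / 2)) := by simp [mul_add]
    _ ≤ η * (N : ℝ) ^ 2 := by
        have hN0 : (0 : ℝ) ≤ N := Nat.cast_nonneg N
        nlinarith

end Vale.Agent.P102
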