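import Mathlib

set_option linter.unusedSectionVars false
set_option linter.unusedVariables false

namespace Vale.Agent.P102

open MeasureTheory Filter Topology Finset

variable {Ω : Type*} [MeasurableSpace Ω] {μ : Measure Ω} [IsProbabilityMeasure μ]

/-- real valued indicator function -/
noncomputable def ind (X : Set Ω) : Ω → ℝ := X.indicator (fun _ => (1 : ℝ))

theorem ind_mul (X Y : Set Ω) (ω : Ω) : ind X ω * ind Y ω = ind (X ∩ Y) ω := by
  unfold ind
  by_cases hx : ω ∈ X <;> by_cases hy : ω ∈ Y <;> simp [hx, hy]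

theorem ind_nonneg (X : Set Ω) (ω : Ω) : 0 ≤ ind X ω := by
  unfold ind
  by_cases hx : ω ∈ X <;> simp [hx]

theorem ind_le_one (X : Set Ω) (ω : Ω) : ind X ω ≤ 1 := by
  unfold ind
  by_cases hx : ω ∈ X <;> simp [hx]

theorem measurable_ind {X : Set Ω} (hX : MeasurableSet X) : Measurable (ind X) :=
  measurable_const.indicator hX

theorem integrable_ind {X : Set Ω} (hX : MeasurableSet X) : Integrable (ind X) μ :=
  (integrable_const (1 : ℝ)).indicator hX

theorem integral_ind {X : Set Ω} (hX : MeasurableSet X) : ∫ ω, ind X ω ∂μ = μ.real X := by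
  unfold ind
  rw [integral_indicator hX]
  simp

/-- `(∫ G)^2 ≤ ∫ G^2` for bounded measurable `G` on a probability space. -/
theorem sq_integral_le {G : Ω → ℝ} (hG : Measurable G) (C : ℝ) (hC : ∀ ω, |G ω| ≤ C) :
    (∫ ω, G ω ∂μ) ^ 2 ≤ ∫ ω, G ω ^ 2 ∂μ := by
  have hmem : MemLp G 2 μ :=
    MemLp.of_bound hG.aestronglyMeasurable C (Eventually.of_forall (fun ω => by
      rw [Real.norm_eq_abs]; exact hC ω))
  have h1 := ProbabilityTheory.variance_nonneg G μ
  rw [ProbabilityTheory.variance_eq_sub hmem] at h1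
  simp only [Pi.pow_apply] at h1
  linarith

theorem integral_lin4 {f g h : Ω → ℝ} (hf : Integrable f μ) (hg : Integrable g μ)
    (hh : Integrable h μ) (p c : ℝ) :
    ∫ ω, (f ω - p * g ω - p * h ω + c) ∂μ
      = ∫ ω, f ω ∂μ - p * ∫ ω, g ω ∂μ - p * ∫ ω, h ω ∂μ + c := by
  have h1 : Integrable (fun ω => p * g ω) μ := hg.const_mul p
  have h2 : Integrable (fun ω => p * h ω) μ := hh.const_mul p
  have h3 : Integrable (fun ω => f ω - p * g ω) μ := hf.sub h1
  have h4 : Integrable (fun ω => f ω - p * g ω - p * h ω) μ := h3.sub h2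
  rw [integral_add h4 (integrable_const c), integral_sub h3 h2, integral_sub hf h1,
    integral_const_mul, integral_const_mul]
  simp

theorem variance_ineq (N : ℕ) (Y : ℕ → Set Ω) (hY : ∀ a, MeasurableSet (Y a))
    {X : Set Ω} (hX : MeasurableSet X) (p : ℝ) :
    (∑ a ∈ range N, (μ.real (X ∩ Y a) - p * μ.real X)) ^ 2
      ≤ ∑ a ∈ range N, ∑ b ∈ range N,
          (μ.real (Y a ∩ Y b) - p * μ.real (Y a) - p * μ.real (Y b) + p ^ 2) := by
  set F : Ω → ℝ := fun ω => ∑ a ∈ range N, (ind (Y a) ω - p) with hF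
  have hFm : Measurable F :=
    Finset.measurable_sum _ (fun a _ => (measurable_ind (hY a)).sub_const p)
  have hFb : ∀ ω, |F ω| ≤ N * (1 + |p|) := by
    intro ω
    calc |F ω| ≤ ∑ a ∈ range N, |ind (Y a) ω - p| := Finset.abs_sum_le_sum_abs _ _
      _ ≤ ∑ a ∈ range N, (1 + |p|) := by
          apply Finset.sum_le_sum
          intro a _
          have h1 := ind_nonneg (Y a) ω
          have h2 := ind_le_one (Y a) ω
          calc |ind (Y a) ω - p| ≤ |ind (Y a) ω| + |p| := abs_sub _ _
            _ ≤ 1 + |p| := by rw [abs_of_nonneg h1]; linarith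
      _ = N * (1 + |p|) := by simp [mul_add]
  set G : Ω → ℝ := fun ω => ind X ω * F ω with hG
  have hGm : Measurable G := (measurable_ind hX).mul hFm
  have hGb : ∀ ω, |G ω| ≤ N * (1 + |p|) := by
    intro ω
    have h1 := ind_nonneg X ω
    have h2 := ind_le_one X ω
    rw [hG]
    simp only
    rw [abs_mul, abs_of_nonneg h1]
    calc ind X ω * |F ω| ≤ 1 * |F ω| := mul_le_mul_of_nonneg_right h2 (abs_nonneg _)
      _ ≤ N * (1 + |p|) := by rw [one_mul]; exact hFb ω
  have hstep1 := sq_integral_le (μ := μ) hGm _ hGb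
  -- the integral of G
  have hGint : ∫ ω, G ω ∂μ = ∑ a ∈ range N, (μ.real (X ∩ Y a) - p * μ.real X) := by
    have : G = fun ω => ∑ a ∈ range N, (ind (X ∩ Y a) ω - p * ind X ω) := by
      funext ω
      rw [hG, hF]
      simp only
      rw [Finset.mul_sum]
      apply Finset.sum_congr rfl
      intro a _
      rw [mul_sub, ind_mul]
      ring
    rw [this, integral_finsetSum]
    · apply Finset.sum_congr rfl
      intro a _
      rw [integral_sub (integrable_ind (hX.inter (hY a))) ((integrable_ind hX).const_mul p),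
        integral_ind (hX.inter (hY a)), integral_const_mul, integral_ind hX]
    · intro a _
      exact (integrable_ind (hX.inter (hY a))).sub ((integrable_ind hX).const_mul p)
  -- G^2 ≤ F^2
  have hF2int : Integrable (fun ω => F ω ^ 2) μ := by
    apply Integrable.of_bound (hFm.pow_const 2).aestronglyMeasurable ((N * (1 + |p|)) ^ 2)
    refine Eventually.of_forall (fun ω => ?_)
    rw [Real.norm_eq_abs, abs_pow]
    exact pow_le_pow_left₀ (abs_nonneg _) (hFb ω) 2
  have hG2int : Integrable (fun ω => G ω ^ 2) μ := by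
    apply Integrable.of_bound (hGm.pow_const 2).aestronglyMeasurable ((N * (1 + |p|)) ^ 2)
    refine Eventually.of_forall (fun ω => ?_)
    rw [Real.norm_eq_abs, abs_pow]
    exact pow_le_pow_left₀ (abs_nonneg _) (hGb ω) 2
  have hstep2 : ∫ ω, G ω ^ 2 ∂μ ≤ ∫ ω, F ω ^ 2 ∂μ := by
    apply integral_mono hG2int hF2int
    intro ω
    have h1 := ind_nonneg X ω
    have h2 := ind_le_one X ω
    simp only [hG]
    rw [mul_pow]
    have : ind X ω ^ 2 ≤ 1 := by nlinarith
    nlinarith [sq_nonneg (F ω)]
  -- the integral of F^2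
  have hF2 : ∫ ω, F ω ^ 2 ∂μ = ∑ a ∈ range N, ∑ b ∈ range N,
      (μ.real (Y a ∩ Y b) - p * μ.real (Y a) - p * μ.real (Y b) + p ^ 2) := by
    have : (fun ω => F ω ^ 2) = fun ω => ∑ a ∈ range N, ∑ b ∈ range N,
        (ind (Y a ∩ Y b) ω - p * ind (Y a) ω - p * ind (Y b) ω + p ^ 2) := by
      funext ω
      rw [hF]
      simp only
      rw [pow_two, Finset.sum_mul_sum]
      apply Finset.sum_congr rfl
      intro a _
      apply Finset.sum_congr rfl
      intro b _
      rw [← ind_mul]
      ring
    have hint : ∀ a b, Integrable (fun ω => ind (Y a ∩ Y b) ω - p * ind (Y a) ω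
        - p * ind (Y b) ω + p ^ 2) μ := by
      intro a b
      exact (((integrable_ind ((hY a).inter (hY b))).sub ((integrable_ind (hY a)).const_mul p)).sub
        ((integrable_ind (hY b)).const_mul p)).add (integrable_const _)
    rw [this, integral_finsetSum]
    · apply Finset.sum_congr rfl
      intro a _
      rw [integral_finsetSum]
      · apply Finset.sum_congr rfl
        intro b _
        rw [integral_lin4 (integrable_ind ((hY a).inter (hY b))) (integrable_ind (hY a))
          (integrable_ind (hY b)), integral_ind ((hY a).inter (hY b)),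
          integral_ind (hY a), integral_ind (hY b)]
      · intro b _
        exact hint a b
    · intro a _
      exact integrable_finsetSum _ (fun b _ => hint a b)
  rw [← hGint, ← hF2]
  exact hstep1.trans hstep2

end Vale.Agent.P102
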