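import Vale.Agent.P102.Polar
import Vale.Agent.P102.Variance
import Vale.Agent.P102.Cesaro

set_option linter.unusedSectionVars false
set_option linter.unusedVariables false

namespace Vale.Agent.P102

open MeasureTheory Filter Topology Finset

variable {Ω : Type*} [MeasurableSpace Ω] {μ : Measure Ω}

namespace ZSys

variable (Z : ZSys μ) [IsProbabilityMeasure μ]

theorem tendstoZ_of_mix2 (hM : Z.Mix2) {X Y : Set Ω} (hX : MeasurableSet X)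
    (hY : MeasurableSet Y) :
    Tendsto (fun k : ℤ => Z.rho k X Y) atTop (𝓝 (μ.real X * μ.real Y)) := by
  rw [← Nat.map_cast_int_atTop, tendsto_map'_iff]
  exact hM X Y hX hY

theorem rho_two_sided (hM : Z.Mix2) {X : Set Ω} (hX : MeasurableSet X) (η : ℝ) (hη : 0 < η) :
    ∃ K : ℕ, ∀ k : ℤ, (K : ℤ) ≤ |k| → Z.rho k X X ≤ μ.real X * μ.real X + η := by
  have h := (Z.tendstoZ_of_mix2 hM hX hX).eventually
    (gt_mem_nhds (show μ.real X * μ.real X < μ.real X * μ.real X + η by linarith))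
  obtain ⟨K₀, hK₀⟩ := eventually_atTop.mp h
  refine ⟨K₀.toNat, fun k hk => ?_⟩
  have hK : K₀ ≤ |k| := (Int.self_le_toNat K₀).trans hk
  rcases le_total 0 k with h0 | h0
  · rw [abs_of_nonneg h0] at hK
    exact (hK₀ k hK).le
  · rw [abs_of_nonpos h0] at hK
    have := (hK₀ (-k) hK).le
    rwa [Z.rho_neg k hX hX] at this

theorem tendsto_snd_add (c : ℤ) :
    Tendsto (fun mn : ℕ × ℕ => (mn.2 : ℤ) + c) atTop atTop :=
  tendsto_atTop_add_const_right _ _ (tendsto_natCast_atTop_atTop.comp tendsto_snd_top)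

/-- Uniform Cesaro convergence of triple correlations along arithmetic shifts. -/
theorem avg_tau (hM : Z.Mix2) {X₀ X₁ X₂ : Set Ω} (h₀ : MeasurableSet X₀)
    (h₁ : MeasurableSet X₁) (h₂ : MeasurableSet X₂) (s₁ s₂ : ℤ) (hs₁ : s₁ ≠ 0) (hs₂ : s₂ ≠ 0)
    (ε : ℝ) (hε : 0 < ε) :
    ∃ N₀ : ℕ, ∀ N : ℕ, N₀ ≤ N → ∀ᶠ mn in (atTop : Filter (ℕ × ℕ)),
      |∑ a ∈ range N, (Z.tau ((mn.1 : ℤ) + s₁ * a) ((mn.1 : ℤ) + (mn.2 : ℤ) + s₂ * a) X₀ X₁ X₂
          - μ.real X₀ * μ.real X₁ * μ.real X₂)| ≤ ε * N := by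
  set x₁ := μ.real X₁ with hx₁
  set x₂ := μ.real X₂ with hx₂
  set p := x₁ * x₂ with hp
  have hx₁0 : 0 ≤ x₁ := measureReal_nonneg
  have hx₂0 : 0 ≤ x₂ := measureReal_nonneg
  have hx₁1 : x₁ ≤ 1 := measureReal_le_one
  have hx₂1 : x₂ ≤ 1 := measureReal_le_one
  -- the limiting covariance kernel
  set w : ℤ → ℝ := fun d => Z.rho (s₁ * d) X₁ X₁ * Z.rho (s₂ * d) X₂ X₂ - p ^ 2 with hw
  have hwb : ∀ d, w d ≤ 1 := by
    intro d
    have a1 := Z.rho_le_one (s₁ * d) X₁ X₁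
    have a2 := Z.rho_le_one (s₂ * d) X₂ X₂
    have b1 := Z.rho_nonneg (s₁ * d) X₁ X₁
    have b2 := Z.rho_nonneg (s₂ * d) X₂ X₂
    simp only [hw]
    nlinarith [sq_nonneg p]
  have hwsmall : ∀ η : ℝ, 0 < η → ∃ D : ℕ, ∀ d : ℤ, (D : ℤ) ≤ |d| → w d ≤ η := by
    intro η hη
    obtain ⟨K₁, hK₁⟩ := Z.rho_two_sided hM h₁ (min (η / 3) 1) (by positivity)
    obtain ⟨K₂, hK₂⟩ := Z.rho_two_sided hM h₂ (min (η / 3) 1) (by positivity)
    refine ⟨max K₁ K₂, fun d hd => ?_⟩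
    have hd1 : (K₁ : ℤ) ≤ |s₁ * d| := by
      rw [abs_mul]
      have : (1 : ℤ) ≤ |s₁| := Int.one_le_abs hs₁
      have h3 : (K₁ : ℤ) ≤ |d| := le_trans (by exact_mod_cast le_max_left K₁ K₂) hd
      nlinarith [abs_nonneg d]
    have hd2 : (K₂ : ℤ) ≤ |s₂ * d| := by
      rw [abs_mul]
      have : (1 : ℤ) ≤ |s₂| := Int.one_le_abs hs₂
      have h3 : (K₂ : ℤ) ≤ |d| := le_trans (by exact_mod_cast le_max_right K₁ K₂) hd
      nlinarith [abs_nonneg d]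
    have e1 := hK₁ _ hd1
    have e2 := hK₂ _ hd2
    have b1 := Z.rho_nonneg (s₁ * d) X₁ X₁
    have b2 := Z.rho_nonneg (s₂ * d) X₂ X₂
    set δ := min (η / 3) 1 with hδ
    have hδ0 : 0 < δ := by positivity
    have hδ1 : δ ≤ 1 := min_le_right _ _
    have hδ3 : δ ≤ η / 3 := min_le_left _ _
    simp only [hw]
    have hprod : Z.rho (s₁ * d) X₁ X₁ * Z.rho (s₂ * d) X₂ X₂
        ≤ (x₁ * x₁ + δ) * (x₂ * x₂ + δ) :=
      mul_le_mul e1 e2 b2 (by positivity)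
    have hx11 : x₁ * x₁ ≤ 1 := by nlinarith
    have hx22 : x₂ * x₂ ≤ 1 := by nlinarith
    have : (x₁ * x₁ + δ) * (x₂ * x₂ + δ) ≤ p ^ 2 + 3 * δ := by
      rw [hp]
      nlinarith
    linarith
  obtain ⟨N₁, hN₁⟩ := cesaro w hwb hwsmall (ε ^ 2 / 2) (by positivity)
  refine ⟨max N₁ 1, fun N hN => ?_⟩
  have hNN₁ : N₁ ≤ N := le_trans (le_max_left _ _) hN
  have hN1 : 1 ≤ N := le_trans (le_max_right _ _) hN
  have hNpos : (0 : ℝ) < N := by exact_mod_cast hN1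
  -- the sets
  set Y : ℕ × ℕ → ℕ → Set Ω := fun mn a =>
    Z.S ((mn.1 : ℤ) + s₁ * a) ⁻¹' X₁ ∩ Z.S ((mn.1 : ℤ) + (mn.2 : ℤ) + s₂ * a) ⁻¹' X₂ with hY
  have hYm : ∀ mn a, MeasurableSet (Y mn a) := fun mn a =>
    (Z.measSet _ h₁).inter (Z.measSet _ h₂)
  set P : ℕ → ℕ → Set Ω := fun a b => Z.S (s₁ * a) ⁻¹' X₁ ∩ Z.S (s₁ * b) ⁻¹' X₁ with hP
  set R : ℕ → ℕ → Set Ω := fun a b => Z.S (s₂ * a) ⁻¹' X₂ ∩ Z.S (s₂ * b) ⁻¹' X₂ with hR
  have hPm : ∀ a b, MeasurableSet (P a b) := fun a b =>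
    (Z.measSet _ h₁).inter (Z.measSet _ h₁)
  have hRm : ∀ a b, MeasurableSet (R a b) := fun a b =>
    (Z.measSet _ h₂).inter (Z.measSet _ h₂)
  have f2 : ∀ mn a, μ.real (Y mn a) = Z.rho ((mn.2 : ℤ) + (s₂ - s₁) * a) X₁ X₂ := by
    intro mn a
    simp only [hY]
    rw [Z.rho_shift _ _ h₁ h₂]
    congr 1
    ring
  have f3 : ∀ mn a b, μ.real (Y mn a ∩ Y mn b) = Z.rho (mn.2 : ℤ) (P a b) (R a b) := by
    intro mn a b
    have hset : Y mn a ∩ Y mn b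
        = Z.S (mn.1 : ℤ) ⁻¹' (P a b) ∩ Z.S ((mn.1 : ℤ) + (mn.2 : ℤ)) ⁻¹' (R a b) := by
      simp only [hY, hP, hR, Set.preimage_inter, Z.pre_pre]
      rw [Set.inter_inter_inter_comm]
    rw [hset, Z.rho_shift _ _ (hPm a b) (hRm a b)]
    congr 1
    ring
  have f4 : ∀ a b : ℕ, μ.real (P a b) = Z.rho (s₁ * ((b : ℤ) - (a : ℤ))) X₁ X₁ := by
    intro a b
    simp only [hP]
    rw [Z.rho_shift _ _ h₁ h₁]
    congr 1
    ring
  have f5 : ∀ a b : ℕ, μ.real (R a b) = Z.rho (s₂ * ((b : ℤ) - (a : ℤ))) X₂ X₂ := by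
    intro a b
    simp only [hR]
    rw [Z.rho_shift _ _ h₂ h₂]
    congr 1
    ring
  -- convergence of the variance
  have hV : Tendsto (fun mn : ℕ × ℕ => ∑ a ∈ range N, ∑ b ∈ range N,
      (μ.real (Y mn a ∩ Y mn b) - p * μ.real (Y mn a) - p * μ.real (Y mn b) + p ^ 2)) atTop
      (𝓝 (∑ a ∈ range N, ∑ b ∈ range N, w ((b : ℤ) - (a : ℤ)))) := by
    apply tendsto_finsetSum
    intro a _
    apply tendsto_finsetSum
    intro b _
    have t1 : Tendsto (fun mn : ℕ × ℕ => μ.real (Y mn a ∩ Y mn b)) atTop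
        (𝓝 (μ.real (P a b) * μ.real (R a b))) := by
      simp only [f3]
      exact (hM (P a b) (R a b) (hPm a b) (hRm a b)).comp tendsto_snd_top
    have t2 : ∀ c : ℕ, Tendsto (fun mn : ℕ × ℕ => μ.real (Y mn c)) atTop (𝓝 p) := by
      intro c
      simp only [f2]
      exact (Z.tendstoZ_of_mix2 hM h₁ h₂).comp (tendsto_snd_add _)
    have t := ((t1.sub ((t2 a).const_mul p)).sub ((t2 b).const_mul p)).add_const (p ^ 2)
    have hlim : μ.real (P a b) * μ.real (R a b) - p * p - p * p + p ^ 2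
        = w ((b : ℤ) - (a : ℤ)) := by
      simp only [hw]
      rw [f4, f5]
      ring
    rw [hlim] at t
    exact t
  have hlt : ∑ a ∈ range N, ∑ b ∈ range N, w ((b : ℤ) - (a : ℤ)) < ε ^ 2 * (N : ℝ) ^ 2 := by
    have := hN₁ N hNN₁
    have h2 : 0 < ε ^ 2 * (N : ℝ) ^ 2 := by positivity
    nlinarith
  filter_upwards [hV.eventually (gt_mem_nhds hlt)] with mn hmn
  have hvar := variance_ineq (μ := μ) N (Y mn) (hYm mn) h₀ p
  have hsum : ∑ a ∈ range N, (Z.tau ((mn.1 : ℤ) + s₁ * a) ((mn.1 : ℤ) + (mn.2 : ℤ) + s₂ * a)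
      X₀ X₁ X₂ - μ.real X₀ * x₁ * x₂) = ∑ a ∈ range N, (μ.real (X₀ ∩ Y mn a) - p * μ.real X₀) := by
    apply Finset.sum_congr rfl
    intro a _
    simp only [hY, tau, hp]
    rw [Set.inter_assoc]
    ring
  rw [hsum]
  have hsq : (∑ a ∈ range N, (μ.real (X₀ ∩ Y mn a) - p * μ.real X₀)) ^ 2 ≤ (ε * N) ^ 2 := by
    rw [mul_pow]
    exact hvar.trans hmn.le
  exact abs_le_of_sq_le_sq hsq (by positivity)

end ZSys

end Vale.Agent.P102
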