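import Mathlib

set_option linter.unusedSectionVars false
set_option linter.unusedVariables false

namespace Vale.Agent.P102

open MeasureTheory Filter Topology

variable {Ω : Type*} [MeasurableSpace Ω]

/-- A measure preserving action of the integers. -/
structure ZSys (μ : Measure Ω) where
  S : ℤ → Ω → Ω
  S_zero : S 0 = id
  S_add : ∀ a b : ℤ, S (a + b) = S a ∘ S b
  mp : ∀ a : ℤ, MeasurePreserving (S a) μ μ

variable {μ : Measure Ω}

namespace ZSys

variable (Z : ZSys μ)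

theorem meas (a : ℤ) : Measurable (Z.S a) := (Z.mp a).measurable

theorem measSet (a : ℤ) {X : Set Ω} (hX : MeasurableSet X) : MeasurableSet (Z.S a ⁻¹' X) :=
  Z.meas a hX

theorem pre_pre (a b : ℤ) (X : Set Ω) : Z.S a ⁻¹' (Z.S b ⁻¹' X) = Z.S (a + b) ⁻¹' X := by
  rw [add_comm, Z.S_add b a, Set.preimage_comp]

theorem pre_zero (X : Set Ω) : Z.S 0 ⁻¹' X = X := by
  rw [Z.S_zero]; rfl

theorem real_pre (a : ℤ) {X : Set Ω} (hX : MeasurableSet X) :
    μ.real (Z.S a ⁻¹' X) = μ.real X :=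
  (Z.mp a).measureReal_preimage hX.nullMeasurableSet

/-- pair correlation -/
noncomputable def rho (p : ℤ) (X Y : Set Ω) : ℝ := μ.real (X ∩ Z.S p ⁻¹' Y)

/-- triple correlation -/
noncomputable def tau (p q : ℤ) (X Y W : Set Ω) : ℝ :=
  μ.real (X ∩ Z.S p ⁻¹' Y ∩ Z.S q ⁻¹' W)

theorem rho_nonneg (p : ℤ) (X Y : Set Ω) : 0 ≤ Z.rho p X Y := measureReal_nonneg

theorem tau_nonneg (p q : ℤ) (X Y W : Set Ω) : 0 ≤ Z.tau p q X Y W := measureReal_nonneg

variable [IsProbabilityMeasure μ]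

theorem rho_le_one (p : ℤ) (X Y : Set Ω) : Z.rho p X Y ≤ 1 := measureReal_le_one

theorem tau_le_one (p q : ℤ) (X Y W : Set Ω) : Z.tau p q X Y W ≤ 1 := measureReal_le_one

theorem rho_neg (p : ℤ) {X : Set Ω} (hX : MeasurableSet X) {Y : Set Ω} (hY : MeasurableSet Y) :
    Z.rho (-p) X Y = Z.rho p Y X := by
  unfold rho
  rw [← Z.real_pre p (hX.inter (Z.measSet _ hY)), Set.preimage_inter, Z.pre_pre]
  simp only [add_neg_cancel, Z.pre_zero]
  rw [Set.inter_comm]

theorem rho_shift (c p : ℤ) {X Y : Set Ω} (hX : MeasurableSet X) (hY : MeasurableSet Y) :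
    μ.real (Z.S c ⁻¹' X ∩ Z.S p ⁻¹' Y) = Z.rho (p - c) X Y := by
  unfold rho
  rw [← Z.real_pre c (hX.inter (Z.measSet _ hY)), Set.preimage_inter, Z.pre_pre]
  have : c + (p - c) = p := by ring
  rw [this]

theorem tau_shift (c p q : ℤ) {X Y W : Set Ω} (hX : MeasurableSet X) (hY : MeasurableSet Y)
    (hW : MeasurableSet W) :
    Z.tau p q (Z.S c ⁻¹' X) Y W = Z.tau (p - c) (q - c) X Y W := by
  unfold tau
  rw [← Z.real_pre c ((hX.inter (Z.measSet _ hY)).inter (Z.measSet _ hW)), Set.preimage_inter,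
    Set.preimage_inter, Z.pre_pre, Z.pre_pre]
  have h1 : c + (p - c) = p := by ring
  have h2 : c + (q - c) = q := by ring
  rw [h1, h2]

theorem tau_pre_mid (c p q : ℤ) (X Y W : Set Ω) :
    Z.tau p q X (Z.S c ⁻¹' Y) W = Z.tau (p + c) q X Y W := by
  unfold tau
  rw [Z.pre_pre]

theorem tau_pre_right (c p q : ℤ) (X Y W : Set Ω) :
    Z.tau p q X Y (Z.S c ⁻¹' W) = Z.tau p (q + c) X Y W := by
  unfold tau
  rw [Z.pre_pre]

theorem tau_le_rho12 (p q : ℤ) (X Y W : Set Ω) : Z.tau p q X Y W ≤ Z.rho p X Y :=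
  measureReal_mono Set.inter_subset_left

theorem tau_le_rho13 (p q : ℤ) (X Y W : Set Ω) : Z.tau p q X Y W ≤ Z.rho q X W :=
  measureReal_mono (fun _ hx => ⟨hx.1.1, hx.2⟩)

theorem tau_le_rho23 (p q : ℤ) {X Y W : Set Ω} (hY : MeasurableSet Y) (hW : MeasurableSet W) :
    Z.tau p q X Y W ≤ Z.rho (q - p) Y W := by
  rw [← Z.rho_shift p q hY hW]
  exact measureReal_mono (fun _ hx => ⟨hx.1.2, hx.2⟩)

theorem tau_union_left (p q : ℤ) {X X' Y W : Set Ω} (hd : Disjoint X X')
    (hX' : MeasurableSet X') (hY : MeasurableSet Y) (hW : MeasurableSet W) :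
    Z.tau p q (X ∪ X') Y W = Z.tau p q X Y W + Z.tau p q X' Y W := by
  unfold tau
  rw [← measureReal_union _ ((hX'.inter (Z.measSet _ hY)).inter (Z.measSet _ hW))]
  · congr 1
    ext x
    simp only [Set.mem_inter_iff, Set.mem_union, Set.mem_preimage]
    tauto
  · exact (hd.mono (fun _ hx => hx.1.1) (fun _ hx => hx.1.1))

theorem tau_union_mid (p q : ℤ) {X Y Y' W : Set Ω} (hd : Disjoint Y Y')
    (hX : MeasurableSet X) (hY' : MeasurableSet Y') (hW : MeasurableSet W) :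
    Z.tau p q X (Y ∪ Y') W = Z.tau p q X Y W + Z.tau p q X Y' W := by
  unfold tau
  rw [← measureReal_union _ ((hX.inter (Z.measSet _ hY')).inter (Z.measSet _ hW))]
  · congr 1
    ext x
    simp only [Set.mem_inter_iff, Set.mem_union, Set.mem_preimage]
    tauto
  · rw [Set.disjoint_left]
    intro x hx hx'
    exact (Set.disjoint_left.mp hd) hx.1.2 hx'.1.2

theorem tau_union_right (p q : ℤ) {X Y W W' : Set Ω} (hd : Disjoint W W')
    (hX : MeasurableSet X) (hY : MeasurableSet Y) (hW' : MeasurableSet W') :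
    Z.tau p q X Y (W ∪ W') = Z.tau p q X Y W + Z.tau p q X Y W' := by
  unfold tau
  rw [← measureReal_union _ ((hX.inter (Z.measSet _ hY)).inter (Z.measSet _ hW'))]
  · congr 1
    ext x
    simp only [Set.mem_inter_iff, Set.mem_union, Set.mem_preimage]
    tauto
  · rw [Set.disjoint_left]
    intro x hx hx'
    exact (Set.disjoint_left.mp hd) hx.2 hx'.2

/-- symmetrised defect of the triple correlations -/
noncomputable def sigma (p q : ℤ) (X Y W : Set Ω) : ℝ :=
  Z.tau p q X Y W + Z.tau p q X W Y + Z.tau p q Y X W + Z.tau p q Y W X + Z.tau p q W X Y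
    + Z.tau p q W Y X - 6 * (μ.real X * μ.real Y * μ.real W)

theorem sigma_comm12 (p q : ℤ) (X Y W : Set Ω) : Z.sigma p q X Y W = Z.sigma p q Y X W := by
  unfold sigma; ring

theorem sigma_comm23 (p q : ℤ) (X Y W : Set Ω) : Z.sigma p q X Y W = Z.sigma p q X W Y := by
  unfold sigma; ring

theorem sigma_comm13 (p q : ℤ) (X Y W : Set Ω) : Z.sigma p q X Y W = Z.sigma p q W Y X := by
  unfold sigma; ring

theorem sigma_union (p q : ℤ) {X X' Y W : Set Ω} (hd : Disjoint X X')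
    (hX : MeasurableSet X) (hX' : MeasurableSet X') (hY : MeasurableSet Y)
    (hW : MeasurableSet W) :
    Z.sigma p q (X ∪ X') Y W = Z.sigma p q X Y W + Z.sigma p q X' Y W := by
  unfold sigma
  rw [Z.tau_union_left p q hd hX' hY hW, Z.tau_union_left p q hd hX' hW hY,
    Z.tau_union_mid p q hd hY hX' hW, Z.tau_union_right p q hd hY hW hX',
    Z.tau_union_mid p q hd hW hX' hY, Z.tau_union_right p q hd hW hY hX',
    measureReal_union hd hX']
  ring

theorem sigma_union2 (p q : ℤ) {X Y Y' W : Set Ω} (hd : Disjoint Y Y')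
    (hX : MeasurableSet X) (hY : MeasurableSet Y) (hY' : MeasurableSet Y')
    (hW : MeasurableSet W) :
    Z.sigma p q X (Y ∪ Y') W = Z.sigma p q X Y W + Z.sigma p q X Y' W := by
  rw [Z.sigma_comm12, Z.sigma_union p q hd hY hY' hX hW, Z.sigma_comm12 p q Y,
    Z.sigma_comm12 p q Y']

theorem sigma_union3 (p q : ℤ) {X Y W W' : Set Ω} (hd : Disjoint W W')
    (hX : MeasurableSet X) (hY : MeasurableSet Y) (hW : MeasurableSet W)
    (hW' : MeasurableSet W') :
    Z.sigma p q X Y (W ∪ W') = Z.sigma p q X Y W + Z.sigma p q X Y W' := by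
  rw [Z.sigma_comm13, Z.sigma_union p q hd hW hW' hY hX, Z.sigma_comm13 p q W,
    Z.sigma_comm13 p q W']

theorem sigma_diag (p q : ℤ) (X : Set Ω) :
    Z.sigma p q X X X = 6 * (Z.tau p q X X X - μ.real X ^ 3) := by
  unfold sigma; ring

end ZSys

end Vale.Agent.P102
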