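import Mathlib

namespace Vale.Agent.P102

open MeasureTheory

/-- `T` is mixing of order `k` for the measure `μ`: for all measurable `A_1, ..., A_k`,
`μ (⋂ i, T^{-t_i} A_i) → ∏ i, μ (A_i)` as the integer times `t_1 < ... < t_k` have all gaps
tending to infinity.  (`T.toEquiv ^ t` is the `t`-th power, `t : ℤ`, of `T` in the group of
permutations of `Ω`.) -/
def MixingOfOrder {Ω : Type*} [MeasurableSpace Ω] (μ : Measure Ω) (T : Ω ≃ᵐ Ω) (k : ℕ) : Prop :=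
  ∀ A : Fin k → Set Ω, (∀ i, MeasurableSet (A i)) → ∀ ε : ℝ, 0 < ε → ∃ N : ℕ,
    ∀ t : Fin k → ℤ, (∀ i j : Fin k, i < j → t i + (N : ℤ) ≤ t j) →
      |μ.real (⋂ i, ⇑(T.toEquiv ^ t i) ⁻¹' A i) - ∏ i, μ.real (A i)| < ε

end Vale.Agent.P102
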