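import Vale.Agent.P102.Average

set_option linter.unusedSectionVars false
set_option linter.unusedVariables false

namespace Vale.Agent.P102

open MeasureTheory Filter Topology Finset

variable {Ω : Type*} [MeasurableSpace Ω] {μ : Measure Ω}

theorem tendsto_shift_top (a b : ℕ) :
    Tendsto (fun mn : ℕ × ℕ => (mn.1 + a, mn.2 + b)) atTop atTop := by
  rw [← prod_atTop_atTop_eq]
  exact (tendsto_atTop_mono (fun mn => Nat.le_add_right _ a) tendsto_fst).prodMk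
    (tendsto_atTop_mono (fun mn => Nat.le_add_right _ b) tendsto_snd)

namespace ZSys

variable (Z : ZSys μ) [IsProbabilityMeasure μ]

/-- The six terms of the symmetrised defect for the shifted sets. -/
theorem sg_shifted (mn : ℕ × ℕ) (a : ℕ) {A B C : Set Ω} (hA : MeasurableSet A)
    (hB : MeasurableSet B) (hC : MeasurableSet C) :
    Z.sg (mn.1 + a, mn.2 + 2 * a) A (Z.S (-(a : ℤ)) ⁻¹' B) (Z.S (-(3 * (a : ℤ))) ⁻¹' C)
      = (Z.tau mn.1 ((mn.1 : ℤ) + mn.2) A B C - μ.real A * μ.real B * μ.real C)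
      + (Z.tau ((mn.1 : ℤ) + (-2) * a) ((mn.1 : ℤ) + mn.2 + 2 * a) A C B
          - μ.real A * μ.real C * μ.real B)
      + (Z.tau ((mn.1 : ℤ) + 2 * a) ((mn.1 : ℤ) + mn.2 + 1 * a) B A C
          - μ.real B * μ.real A * μ.real C)
      + (Z.tau ((mn.1 : ℤ) + (-1) * a) ((mn.1 : ℤ) + mn.2 + 4 * a) B C A
          - μ.real B * μ.real C * μ.real A)
      + (Z.tau ((mn.1 : ℤ) + 4 * a) ((mn.1 : ℤ) + mn.2 + 5 * a) C A B
          - μ.real C * μ.real A * μ.real B)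
      + (Z.tau ((mn.1 : ℤ) + 3 * a) ((mn.1 : ℤ) + mn.2 + 6 * a) C B A
          - μ.real C * μ.real B * μ.real A) := by
  unfold sg sigma
  have hBa := Z.measSet (-(a : ℤ)) hB
  have hCa := Z.measSet (-(3 * (a : ℤ))) hC
  rw [Z.tau_shift _ _ _ hB hA hCa, Z.tau_shift _ _ _ hB hCa hA, Z.tau_shift _ _ _ hC hA hBa,
    Z.tau_shift _ _ _ hC hBa hA]
  simp only [Z.tau_pre_mid, Z.tau_pre_right, Z.real_pre _ hB, Z.real_pre _ hC]
  push_cast
  have e1 : (mn.1 : ℤ) + a + -(a : ℤ) = mn.1 := by ring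
  have e2 : (mn.1 : ℤ) + a + (mn.2 + 2 * a) + -(3 * (a : ℤ)) = (mn.1 : ℤ) + mn.2 := by ring
  have e3 : (mn.1 : ℤ) + a + -(3 * (a : ℤ)) = (mn.1 : ℤ) + (-2) * a := by ring
  have e4 : (mn.1 : ℤ) + a + (mn.2 + 2 * a) + -(a : ℤ) = (mn.1 : ℤ) + mn.2 + 2 * a := by ring
  have e5 : (mn.1 : ℤ) + a - -(a : ℤ) = (mn.1 : ℤ) + 2 * a := by ring
  have e6 : (mn.1 : ℤ) + a + (mn.2 + 2 * a) - -(a : ℤ) + -(3 * (a : ℤ))
      = (mn.1 : ℤ) + mn.2 + 1 * a := by ring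
  have e7 : (mn.1 : ℤ) + a - -(a : ℤ) + -(3 * (a : ℤ)) = (mn.1 : ℤ) + (-1) * a := by ring
  have e8 : (mn.1 : ℤ) + a + (mn.2 + 2 * a) - -(a : ℤ) = (mn.1 : ℤ) + mn.2 + 4 * a := by ring
  have e9 : (mn.1 : ℤ) + a - -(3 * (a : ℤ)) = (mn.1 : ℤ) + 4 * a := by ring
  have e10 : (mn.1 : ℤ) + a + (mn.2 + 2 * a) - -(3 * (a : ℤ)) + -(a : ℤ)
      = (mn.1 : ℤ) + mn.2 + 5 * a := by ring
  have e11 : (mn.1 : ℤ) + a - -(3 * (a : ℤ)) + -(a : ℤ) = (mn.1 : ℤ) + 3 * a := by ring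
  have e12 : (mn.1 : ℤ) + a + (mn.2 + 2 * a) - -(3 * (a : ℤ)) = (mn.1 : ℤ) + mn.2 + 6 * a := by
    ring
  rw [e1, e2, e3, e4, e7, e6, e5, e8, e11, e10, e9, e12]
  ring

/-- Mixing together with the one-set condition implies 3-fold mixing. -/
theorem mix3_of_diag3 (hM : Z.Mix2) (hD : Z.Diag3) : Z.Mix3 := by
  intro A B C hA hB hC
  have key : Tendsto (fun mn : ℕ × ℕ => Z.tau mn.1 ((mn.1 : ℤ) + mn.2) A B C
      - μ.real A * μ.real B * μ.real C) atTop (𝓝 0) := by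
    apply null_of_forall_le
    intro ε hε
    have hε6 : 0 < ε / 6 := by positivity
    obtain ⟨N₂, hN₂⟩ := Z.avg_tau hM hA hC hB (-2) 2 (by norm_num) (by norm_num) (ε / 6) hε6
    obtain ⟨N₃, hN₃⟩ := Z.avg_tau hM hB hA hC 2 1 (by norm_num) (by norm_num) (ε / 6) hε6
    obtain ⟨N₄, hN₄⟩ := Z.avg_tau hM hB hC hA (-1) 4 (by norm_num) (by norm_num) (ε / 6) hε6
    obtain ⟨N₅, hN₅⟩ := Z.avg_tau hM hC hA hB 4 5 (by norm_num) (by norm_num) (ε / 6) hε6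
    obtain ⟨N₆, hN₆⟩ := Z.avg_tau hM hC hB hA 3 6 (by norm_num) (by norm_num) (ε / 6) hε6
    set N := N₂ + N₃ + N₄ + N₅ + N₆ + 1 with hN
    have hNpos : (0 : ℝ) < N := by
      have : 0 < N := by omega
      exact_mod_cast this
    have hsum : Tendsto (fun mn : ℕ × ℕ => ∑ a ∈ range N,
        Z.sg (mn.1 + a, mn.2 + 2 * a) A (Z.S (-(a : ℤ)) ⁻¹' B) (Z.S (-(3 * (a : ℤ))) ⁻¹' C))
        atTop (𝓝 0) := by
      have : Tendsto (fun mn : ℕ × ℕ => ∑ a ∈ range N,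
          Z.sg (mn.1 + a, mn.2 + 2 * a) A (Z.S (-(a : ℤ)) ⁻¹' B) (Z.S (-(3 * (a : ℤ))) ⁻¹' C))
          atTop (𝓝 (∑ a ∈ range N, (0 : ℝ))) := by
        apply tendsto_finsetSum
        intro a _
        exact (Z.sg_null hM hD hA (Z.measSet _ hB) (Z.measSet _ hC)).comp
          (tendsto_shift_top a (2 * a))
      simpa using this
    filter_upwards [forall_le_of_null hsum (ε / 6 * N) (by positivity),
      hN₂ N (by omega), hN₃ N (by omega), hN₄ N (by omega), hN₅ N (by omega), hN₆ N (by omega)]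
      with mn g1 g2 g3 g4 g5 g6
    simp only [Z.sg_shifted mn _ hA hB hC, Finset.sum_add_distrib] at g1
    rw [Finset.sum_const, card_range, nsmul_eq_mul] at g1
    set t := Z.tau mn.1 ((mn.1 : ℤ) + mn.2) A B C - μ.real A * μ.real B * μ.real C with ht
    rw [abs_le] at g1 g2 g3 g4 g5 g6
    have hup : (N : ℝ) * t ≤ N * ε := by linarith [g1.2, g2.1, g3.1, g4.1, g5.1, g6.1]
    have hlo : (N : ℝ) * (-ε) ≤ N * t := by linarith [g1.1, g2.2, g3.2, g4.2, g5.2, g6.2]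
    rw [abs_le]
    exact ⟨le_of_mul_le_mul_left hlo hNpos, le_of_mul_le_mul_left hup hNpos⟩
  have := key.add_const (μ.real A * μ.real B * μ.real C)
  simpa using this

end ZSys

end Vale.Agent.P102
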