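import Vale.Agent.P102.Defs
import Vale.Agent.P102.Main

set_option linter.unusedSectionVars false
set_option linter.unusedVariables false

namespace Vale.Agent.P102

open MeasureTheory Filter Topology Finset

variable {Ω : Type*} [MeasurableSpace Ω] {μ : Measure Ω}

theorem coe_zpow_natCast (T : Ω ≃ᵐ Ω) (n : ℕ) :
    ⇑(T.toEquiv ^ (n : ℤ)) = (⇑T)^[n] := by
  rw [zpow_natCast, ← Equiv.Perm.iterate_eq_pow]
  rfl

theorem coe_zpow_negSucc (T : Ω ≃ᵐ Ω) (n : ℕ) :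
    ⇑(T.toEquiv ^ (Int.negSucc n)) = (⇑T.symm)^[n + 1] := by
  rw [zpow_negSucc, ← inv_pow, ← Equiv.Perm.iterate_eq_pow]
  rfl

theorem mp_zpow (T : Ω ≃ᵐ Ω) (hT : MeasurePreserving T μ μ) (t : ℤ) :
    MeasurePreserving ⇑(T.toEquiv ^ t) μ μ := by
  cases t with
  | ofNat n =>
    rw [Int.ofNat_eq_natCast, coe_zpow_natCast]
    exact hT.iterate n
  | negSucc n =>
    rw [coe_zpow_negSucc]
    exact (hT.symm T).iterate (n + 1)

/-- the integer action generated by `T` -/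
def ofEquiv (T : Ω ≃ᵐ Ω) (hT : MeasurePreserving T μ μ) : ZSys μ where
  S t := ⇑(T.toEquiv ^ t)
  S_zero := by
    funext x
    simp
  S_add a b := by
    funext x
    rw [zpow_add]
    rfl
  mp := mp_zpow T hT

theorem iInter_fin2 (f : Fin 2 → Set Ω) : (⋂ i, f i) = f 0 ∩ f 1 := by
  ext x
  simp [Fin.forall_fin_two]

theorem iInter_fin3 (f : Fin 3 → Set Ω) : (⋂ i, f i) = f 0 ∩ f 1 ∩ f 2 := by
  ext x
  simp only [Set.mem_iInter, Set.mem_inter_iff]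
  constructor
  · intro h
    exact ⟨⟨h 0, h 1⟩, h 2⟩
  · rintro ⟨⟨h0, h1⟩, h2⟩ i
    fin_cases i
    · exact h0
    · exact h1
    · exact h2

variable [IsProbabilityMeasure μ]

theorem mix2_of_mixingOfOrder (T : Ω ≃ᵐ Ω) (hT : MeasurePreserving T μ μ)
    (h : MixingOfOrder μ T 2) : (ofEquiv T hT).Mix2 := by
  intro X Y hX hY
  rw [Metric.tendsto_atTop]
  intro ε hε
  obtain ⟨N, hN⟩ := h ![X, Y] (by
    intro i
    fin_cases i
    · exact hX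
    · exact hY) ε hε
  refine ⟨N, fun n hn => ?_⟩
  have := hN ![0, (n : ℤ)] (by
    intro i j hij
    fin_cases i <;> fin_cases j <;> simp_all)
  rw [iInter_fin2, Fin.prod_univ_two] at this
  simp only [Matrix.cons_val_zero, Matrix.cons_val_one, zpow_zero] at this
  rw [Real.dist_eq]
  exact this

theorem mixingOfOrder3_of_mix3 (T : Ω ≃ᵐ Ω) (hT : MeasurePreserving T μ μ)
    (h : (ofEquiv T hT).Mix3) : MixingOfOrder μ T 3 := by
  intro A hA ε hε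
  have h3 := h (A 0) (A 1) (A 2) (hA 0) (hA 1) (hA 2)
  rw [Metric.tendsto_atTop] at h3
  obtain ⟨⟨M₁, M₂⟩, hM⟩ := h3 ε hε
  refine ⟨max M₁ M₂, fun t ht => ?_⟩
  have h01 := ht 0 1 (by decide)
  have h12 := ht 1 2 (by decide)
  push_cast at h01 h12
  have hm : (M₁ : ℤ) ≤ t 1 - t 0 := by
    have : (M₁ : ℤ) ≤ max (M₁ : ℤ) (M₂ : ℤ) := le_max_left _ _
    linarith
  have hn : (M₂ : ℤ) ≤ t 2 - t 1 := by
    have : (M₂ : ℤ) ≤ max (M₁ : ℤ) (M₂ : ℤ) := le_max_right _ _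
    linarith
  have hm0 : 0 ≤ t 1 - t 0 := le_trans (by positivity) hm
  have hn0 : 0 ≤ t 2 - t 1 := le_trans (by positivity) hn
  have hspec := hM ((t 1 - t 0).toNat, (t 2 - t 1).toNat) (by
    constructor
    · show M₁ ≤ (t 1 - t 0).toNat
      omega
    · show M₂ ≤ (t 2 - t 1).toNat
      omega)
  rw [Real.dist_eq] at hspec
  simp only [Int.toNat_of_nonneg hm0, Int.toNat_of_nonneg hn0] at hspec
  rw [iInter_fin3, Fin.prod_univ_three]
  have hshift := (ofEquiv T hT).tau_shift (t 0) (t 1) (t 2) (hA 0) (hA 1) (hA 2)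
  have e : t 1 - t 0 + (t 2 - t 1) = t 2 - t 0 := by ring
  rw [e, ← hshift] at hspec
  exact hspec

theorem diag3_of_statement (T : Ω ≃ᵐ Ω) (hT : MeasurePreserving T μ μ)
    (h : ∀ A : Set Ω, MeasurableSet A → ∀ ε : ℝ, 0 < ε → ∃ N : ℕ, ∀ m n : ℕ, N ≤ m → N ≤ n →
      |μ.real (A ∩ (⇑T)^[m] ⁻¹' A ∩ (⇑T)^[m + n] ⁻¹' A) - μ.real A ^ 3| < ε) :
    (ofEquiv T hT).Diag3 := by
  intro A hA
  rw [Metric.tendsto_atTop]
  intro ε hε
  obtain ⟨N, hN⟩ := h A hA ε hε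
  refine ⟨(N, N), fun mn hmn => ?_⟩
  have := hN mn.1 mn.2 hmn.1 hmn.2
  rw [Real.dist_eq]
  unfold ZSys.tau
  have e1 : (ofEquiv T hT).S (mn.1 : ℤ) = (⇑T)^[mn.1] := coe_zpow_natCast T mn.1
  have e2 : (ofEquiv T hT).S ((mn.1 : ℤ) + (mn.2 : ℤ)) = (⇑T)^[mn.1 + mn.2] := by
    rw [← Nat.cast_add]
    exact coe_zpow_natCast T (mn.1 + mn.2)
  rw [e1, e2]
  exact this

theorem statement_of_mixingOfOrder3 (T : Ω ≃ᵐ Ω) (h : MixingOfOrder μ T 3) :
    ∀ A : Set Ω, MeasurableSet A → ∀ ε : ℝ, 0 < ε → ∃ N : ℕ, ∀ m n : ℕ, N ≤ m → N ≤ n →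
      |μ.real (A ∩ (⇑T)^[m] ⁻¹' A ∩ (⇑T)^[m + n] ⁻¹' A) - μ.real A ^ 3| < ε := by
  intro A hA ε hε
  obtain ⟨N, hN⟩ := h (fun _ => A) (fun _ => hA) ε hε
  refine ⟨N, fun m n hm hn => ?_⟩
  have := hN ![0, (m : ℤ), ((m + n : ℕ) : ℤ)] (by
    intro i j hij
    fin_cases i <;> fin_cases j <;> simp_all <;> omega)
  rw [iInter_fin3, Fin.prod_univ_three] at this
  simp only [Matrix.cons_val_zero, Matrix.cons_val_one, Matrix.cons_val_two, zpow_zero,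
    Matrix.head_cons, Matrix.tail_cons, coe_zpow_natCast] at this
  have e : μ.real A * μ.real A * μ.real A = μ.real A ^ 3 := by ring
  rw [e] at this
  exact this

end Vale.Agent.P102
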