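import Vale.Agent.P102.Basic

set_option linter.unusedSectionVars false
set_option linter.unusedVariables false

namespace Vale.Agent.P102

open MeasureTheory Filter Topology

variable {Ω : Type*} [MeasurableSpace Ω] {μ : Measure Ω}

theorem tendsto_fst_top : Tendsto (fun mn : ℕ × ℕ => mn.1) atTop atTop := by
  rw [← prod_atTop_atTop_eq]; exact tendsto_fst

theorem tendsto_snd_top : Tendsto (fun mn : ℕ × ℕ => mn.2) atTop atTop := by
  rw [← prod_atTop_atTop_eq]; exact tendsto_snd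

theorem tendsto_add_top : Tendsto (fun mn : ℕ × ℕ => mn.1 + mn.2) atTop atTop :=
  tendsto_atTop_mono (fun mn => Nat.le_add_right _ _) tendsto_fst_top

theorem null_of_forall_le {ι : Type*} {l : Filter ι} {u : ι → ℝ}
    (h : ∀ ε : ℝ, 0 < ε → ∀ᶠ i in l, |u i| ≤ ε) : Tendsto u l (𝓝 0) := by
  rw [Metric.tendsto_nhds]
  intro ε hε
  filter_upwards [h (ε / 2) (by positivity)] with i hi
  rw [Real.dist_eq, sub_zero]
  linarith

theorem forall_le_of_null {ι : Type*} {l : Filter ι} {u : ι → ℝ}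
    (h : Tendsto u l (𝓝 0)) (ε : ℝ) (hε : 0 < ε) : ∀ᶠ i in l, |u i| ≤ ε := by
  rw [Metric.tendsto_nhds] at h
  filter_upwards [h ε hε] with i hi
  rw [Real.dist_eq, sub_zero] at hi
  exact hi.le

namespace ZSys

variable (Z : ZSys μ)

/-- working form of 2-fold mixing -/
def Mix2 : Prop := ∀ X Y : Set Ω, MeasurableSet X → MeasurableSet Y →
  Tendsto (fun n : ℕ => Z.rho n X Y) atTop (𝓝 (μ.real X * μ.real Y))

/-- working form of the one-set condition -/
def Diag3 : Prop := ∀ A : Set Ω, MeasurableSet A →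
  Tendsto (fun mn : ℕ × ℕ => Z.tau mn.1 (mn.1 + mn.2) A A A) atTop (𝓝 (μ.real A ^ 3))

/-- working form of 3-fold mixing -/
def Mix3 : Prop := ∀ A B C : Set Ω, MeasurableSet A → MeasurableSet B → MeasurableSet C →
  Tendsto (fun mn : ℕ × ℕ => Z.tau mn.1 (mn.1 + mn.2) A B C) atTop
    (𝓝 (μ.real A * μ.real B * μ.real C))

/-- symmetrised defect along the configuration `(0, m, m+n)` -/
noncomputable def sg (mn : ℕ × ℕ) (X Y W : Set Ω) : ℝ :=
  Z.sigma mn.1 (mn.1 + mn.2) X Y W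

variable [IsProbabilityMeasure μ]

theorem sg_diag_null (hD : Z.Diag3) {A : Set Ω} (hA : MeasurableSet A) :
    Tendsto (fun mn => Z.sg mn A A A) atTop (𝓝 0) := by
  have h := ((hD A hA).sub_const (μ.real A ^ 3)).const_mul 6
  simp only [sub_self, mul_zero] at h
  refine h.congr (fun mn => ?_)
  unfold sg
  rw [Z.sigma_diag]

theorem sigma_cube_union (p q : ℤ) {A B : Set Ω} (hd : Disjoint A B)
    (hA : MeasurableSet A) (hB : MeasurableSet B) :
    Z.sigma p q (A ∪ B) (A ∪ B) (A ∪ B) = Z.sigma p q A A A + 3 * Z.sigma p q A A B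
      + 3 * Z.sigma p q A B B + Z.sigma p q B B B := by
  have hAB := hA.union hB
  rw [Z.sigma_union p q hd hA hB hAB hAB,
    Z.sigma_union2 p q hd hA hA hB hAB, Z.sigma_union2 p q hd hB hA hB hAB,
    Z.sigma_union3 p q hd hA hA hA hB, Z.sigma_union3 p q hd hA hB hA hB,
    Z.sigma_union3 p q hd hB hA hA hB, Z.sigma_union3 p q hd hB hB hA hB]
  rw [Z.sigma_comm23 p q A B A, Z.sigma_comm13 p q B A A, Z.sigma_comm12 p q B A B,
    Z.sigma_comm13 p q B B A]
  ring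

/-- step (ii) -/
theorem sg_pair_null (hD : Z.Diag3) {A B : Set Ω} (hd : Disjoint A B)
    (hA : MeasurableSet A) (hB : MeasurableSet B) :
    Tendsto (fun mn => Z.sg mn A A B + Z.sg mn A B B) atTop (𝓝 0) := by
  have h1 := Z.sg_diag_null hD (hA.union hB)
  have h2 := Z.sg_diag_null hD hA
  have h3 := Z.sg_diag_null hD hB
  have h := (((h1.sub h2).sub h3).const_mul (1 / 3 : ℝ))
  simp only [sub_self, mul_zero] at h
  refine h.congr (fun mn => ?_)
  unfold sg
  rw [Z.sigma_cube_union _ _ hd hA hB]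
  ring

/-- step (iii) -/
theorem sg_disjoint_null (hD : Z.Diag3) {A B C : Set Ω} (hAB : Disjoint A B)
    (hAC : Disjoint A C) (hBC : Disjoint B C)
    (hA : MeasurableSet A) (hB : MeasurableSet B) (hC : MeasurableSet C) :
    Tendsto (fun mn => Z.sg mn A B C) atTop (𝓝 0) := by
  have hU : Disjoint (A ∪ B) C := Disjoint.union_left hAC hBC
  have h1 := Z.sg_pair_null hD hU (hA.union hB) hC
  have h2 := Z.sg_pair_null hD hAC hA hC
  have h3 := Z.sg_pair_null hD hBC hB hC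
  have h := (((h1.sub h2).sub h3).const_mul (1 / 2 : ℝ))
  simp only [sub_self, mul_zero] at h
  refine h.congr (fun mn => ?_)
  unfold sg
  have hABm := hA.union hB
  rw [Z.sigma_union _ _ hAB hA hB hABm hC, Z.sigma_union2 _ _ hAB hA hA hB hC,
    Z.sigma_union2 _ _ hAB hB hA hB hC, Z.sigma_union _ _ hAB hA hB hC hC,
    Z.sigma_comm12 _ _ B A C]
  ring

/-- a priori bound for the diagonal terms -/
theorem sg_bound0 (hM : Z.Mix2) {A B : Set Ω} (hA : MeasurableSet A) (hB : MeasurableSet B)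
    (ε : ℝ) (hε : 0 < ε) :
    ∀ᶠ mn in (atTop : Filter (ℕ × ℕ)), |Z.sg mn A A B| ≤ 6 * μ.real A ^ 2 + ε := by
  have hr := hM A A hA hA
  have hev : ∀ᶠ n : ℕ in atTop, Z.rho n A A < μ.real A * μ.real A + ε / 6 :=
    hr.eventually (gt_mem_nhds (by linarith))
  filter_upwards [tendsto_fst_top.eventually hev, tendsto_snd_top.eventually hev,
    tendsto_add_top.eventually hev] with mn h1 h2 h3
  have hB1 : μ.real B ≤ 1 := measureReal_le_one
  have hB0 : 0 ≤ μ.real B := measureReal_nonneg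
  have hA0 : 0 ≤ μ.real A := measureReal_nonneg
  have t1 := Z.tau_le_rho12 mn.1 (mn.1 + mn.2) A A B
  have t2 := Z.tau_le_rho13 mn.1 (mn.1 + mn.2) A B A
  have t3 := Z.tau_le_rho23 (X := B) mn.1 (mn.1 + mn.2) hA hA
  have e3 : ((mn.1 : ℤ) + (mn.2 : ℤ) - (mn.1 : ℤ)) = (mn.2 : ℤ) := by ring
  rw [e3] at t3
  have n1 := Z.tau_nonneg mn.1 (mn.1 + mn.2) A A B
  have n2 := Z.tau_nonneg mn.1 (mn.1 + mn.2) A B A
  have n3 := Z.tau_nonneg mn.1 (mn.1 + mn.2) B A A
  push_cast at h3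
  have hAAB : μ.real A * μ.real A * μ.real B ≤ μ.real A * μ.real A :=
    mul_le_of_le_one_right (mul_nonneg hA0 hA0) hB1
  have hAAB0 : 0 ≤ μ.real A * μ.real A * μ.real B := mul_nonneg (mul_nonneg hA0 hA0) hB0
  unfold sg sigma
  rw [abs_le]
  constructor <;> nlinarith

/-- splitting a set into two pieces whose squared measures contract -/
theorem exists_split (hM : Z.Mix2) {E : Set Ω} (hE : MeasurableSet E)
    (hE0 : 0 < μ.real E) (hE1 : μ.real E < 1) {A : Set Ω} (hA : MeasurableSet A) :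
    ∃ A₁ A₂ : Set Ω, MeasurableSet A₁ ∧ MeasurableSet A₂ ∧ Disjoint A₁ A₂ ∧ A₁ ∪ A₂ = A ∧
      μ.real A₁ ^ 2 + μ.real A₂ ^ 2
        ≤ ((1 + μ.real E ^ 2 + (1 - μ.real E) ^ 2) / 2) * μ.real A ^ 2 := by
  set e := μ.real E with he
  set a := μ.real A with ha
  have ha0 : 0 ≤ a := measureReal_nonneg
  rcases eq_or_lt_of_le ha0 with h0 | hpos
  · refine ⟨A, ∅, hA, MeasurableSet.empty, Set.disjoint_empty _, Set.union_empty _, ?_⟩
    rw [← ha, ← h0]
    simp
  · have hr := hM A E hA hE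
    have hcont : Tendsto (fun n : ℕ => (Z.rho n A E) ^ 2 + (a - Z.rho n A E) ^ 2) atTop
        (𝓝 ((a * e) ^ 2 + (a - a * e) ^ 2)) :=
      (hr.pow 2).add ((hr.const_sub a).pow 2)
    have hlt : (a * e) ^ 2 + (a - a * e) ^ 2 < ((1 + e ^ 2 + (1 - e) ^ 2) / 2) * a ^ 2 := by
      have h1 : e ^ 2 + (1 - e) ^ 2 < 1 := by nlinarith
      have h2 : 0 < a ^ 2 := by positivity
      nlinarith
    obtain ⟨n, hn⟩ := (hcont.eventually (gt_mem_nhds hlt)).exists
    refine ⟨A ∩ Z.S n ⁻¹' E, A \ (Z.S n ⁻¹' E), hA.inter (Z.measSet _ hE),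
      hA.diff (Z.measSet _ hE), ?_, Set.inter_union_sdiff _ _, ?_⟩
    · exact Set.disjoint_left.mpr (fun x hx hx' => hx'.2 hx.2)
    · have h2 : μ.real (A \ (Z.S n ⁻¹' E)) = a - Z.rho n A E := by
        have := measureReal_inter_add_sdiff (μ := μ) (s := A) (Z.measSet n hE)
        unfold rho
        linarith
      rw [h2]
      exact hn.le

theorem sigma_split (p q : ℤ) {A₁ A₂ B : Set Ω} (hd : Disjoint A₁ A₂)
    (h1 : MeasurableSet A₁) (h2 : MeasurableSet A₂) (hB : MeasurableSet B) :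
    Z.sigma p q (A₁ ∪ A₂) (A₁ ∪ A₂) B = Z.sigma p q A₁ A₁ B + 2 * Z.sigma p q A₁ A₂ B
      + Z.sigma p q A₂ A₂ B := by
  have hU := h1.union h2
  rw [Z.sigma_union _ _ hd h1 h2 hU hB, Z.sigma_union2 _ _ hd h1 h1 h2 hB,
    Z.sigma_union2 _ _ hd h2 h1 h2 hB, Z.sigma_comm12 _ _ A₂ A₁ B]
  ring

/-- the contraction step -/
theorem sg_contract (hM : Z.Mix2) (hD : Z.Diag3) {E : Set Ω} (hE : MeasurableSet E)
    (hE0 : 0 < μ.real E) (hE1 : μ.real E < 1) (k : ℕ) :
    ∀ A B : Set Ω, MeasurableSet A → MeasurableSet B → Disjoint A B → ∀ ε : ℝ, 0 < ε →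
      ∀ᶠ mn in (atTop : Filter (ℕ × ℕ)),
        |Z.sg mn A A B| ≤ 6 * ((1 + μ.real E ^ 2 + (1 - μ.real E) ^ 2) / 2) ^ k * μ.real A ^ 2
          + ε := by
  set θ := (1 + μ.real E ^ 2 + (1 - μ.real E) ^ 2) / 2 with hθ
  have hθ0 : 0 ≤ θ := by positivity
  induction k with
  | zero =>
    intro A B hA hB _ ε hε
    simpa using Z.sg_bound0 hM hA hB ε hε
  | succ k ih =>
    intro A B hA hB hAB ε hε
    obtain ⟨A₁, A₂, h1, h2, hd, hU, hle⟩ := Z.exists_split hM hE hE0 hE1 hA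
    have hd1 : Disjoint A₁ B := hAB.mono_left (hU ▸ Set.subset_union_left)
    have hd2 : Disjoint A₂ B := hAB.mono_left (hU ▸ Set.subset_union_right)
    have e1 := ih A₁ B h1 hB hd1 (ε / 3) (by positivity)
    have e2 := ih A₂ B h2 hB hd2 (ε / 3) (by positivity)
    have e3 := forall_le_of_null (Z.sg_disjoint_null hD hd hd1 hd2 h1 h2 hB) (ε / 6)
      (by positivity)
    filter_upwards [e1, e2, e3] with mn f1 f2 f3
    have hs : Z.sg mn A A B = Z.sg mn A₁ A₁ B + 2 * Z.sg mn A₁ A₂ B + Z.sg mn A₂ A₂ B := by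
      unfold sg
      rw [← hU, Z.sigma_split _ _ hd h1 h2 hB]
    rw [hs]
    have hk : 0 ≤ 6 * θ ^ k := by positivity
    have hmul : 6 * θ ^ k * (μ.real A₁ ^ 2 + μ.real A₂ ^ 2) ≤ 6 * θ ^ k * (θ * μ.real A ^ 2) :=
      mul_le_mul_of_nonneg_left hle hk
    have habs : |Z.sg mn A₁ A₁ B + 2 * Z.sg mn A₁ A₂ B + Z.sg mn A₂ A₂ B|
        ≤ |Z.sg mn A₁ A₁ B| + 2 * |Z.sg mn A₁ A₂ B| + |Z.sg mn A₂ A₂ B| := by
      have := abs_add_three (Z.sg mn A₁ A₁ B) (2 * Z.sg mn A₁ A₂ B) (Z.sg mn A₂ A₂ B)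
      rwa [abs_mul, abs_two] at this
    rw [pow_succ]
    nlinarith

/-- step (iv), given a set of intermediate measure -/
theorem sg_AAB_null_aux (hM : Z.Mix2) (hD : Z.Diag3) {E : Set Ω} (hE : MeasurableSet E)
    (hE0 : 0 < μ.real E) (hE1 : μ.real E < 1) {A B : Set Ω} (hA : MeasurableSet A)
    (hB : MeasurableSet B) (hAB : Disjoint A B) :
    Tendsto (fun mn => Z.sg mn A A B) atTop (𝓝 0) := by
  apply null_of_forall_le
  intro ε hε
  set θ := (1 + μ.real E ^ 2 + (1 - μ.real E) ^ 2) / 2 with hθ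
  have hθ0 : 0 ≤ θ := by positivity
  have hθ1 : θ < 1 := by
    have : μ.real E ^ 2 + (1 - μ.real E) ^ 2 < 1 := by nlinarith
    rw [hθ]; linarith
  obtain ⟨k, hk⟩ := exists_pow_lt_of_lt_one (show (0 : ℝ) < ε / 12 by positivity) hθ1
  filter_upwards [Z.sg_contract hM hD hE hE0 hE1 k A B hA hB hAB (ε / 2) (by positivity)]
    with mn h
  have hA1 : μ.real A ^ 2 ≤ 1 := by
    have h0 : 0 ≤ μ.real A := measureReal_nonneg
    have h1 : μ.real A ≤ 1 := measureReal_le_one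
    nlinarith
  have hA0 : 0 ≤ μ.real A ^ 2 := by positivity
  have hk0 : 0 ≤ θ ^ k := by positivity
  have : 6 * θ ^ k * μ.real A ^ 2 ≤ ε / 2 := by nlinarith
  linarith

/-- step (iv) -/
theorem sg_AAB_null_disj (hM : Z.Mix2) (hD : Z.Diag3) {A B : Set Ω} (hA : MeasurableSet A)
    (hB : MeasurableSet B) (hAB : Disjoint A B) :
    Tendsto (fun mn => Z.sg mn A A B) atTop (𝓝 0) := by
  have hA0 : 0 ≤ μ.real A := measureReal_nonneg
  have hA1 : μ.real A ≤ 1 := measureReal_le_one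
  rcases eq_or_lt_of_le hA0 with h0 | hpos
  · apply null_of_forall_le
    intro ε hε
    filter_upwards [Z.sg_bound0 hM hA hB ε hε] with mn h
    rw [← h0] at h
    simpa using h
  rcases eq_or_lt_of_le hA1 with h1 | hlt
  · -- then B is null
    have hB0 : μ.real B = 0 := by
      have h := measureReal_union (μ := μ) hAB hB
      have h' : μ.real (A ∪ B) ≤ 1 := measureReal_le_one
      have h'' : 0 ≤ μ.real B := measureReal_nonneg
      linarith
    have hBBA : Tendsto (fun mn => Z.sg mn A B B) atTop (𝓝 0) := by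
      apply null_of_forall_le
      intro ε hε
      filter_upwards [Z.sg_bound0 hM hB hA ε hε] with mn h
      rw [hB0] at h
      have : Z.sg mn A B B = Z.sg mn B B A := by
        unfold sg; rw [Z.sigma_comm13]
      rw [this]
      simpa using h
    have h := (Z.sg_pair_null hD hAB hA hB).sub hBBA
    simp only [sub_self] at h
    refine h.congr (fun mn => ?_)
    ring
  · exact Z.sg_AAB_null_aux hM hD hA hpos hlt hA hB hAB

/-- step (v.a) -/
theorem sg_AAB_null (hM : Z.Mix2) (hD : Z.Diag3) {A B : Set Ω} (hA : MeasurableSet A)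
    (hB : MeasurableSet B) :
    Tendsto (fun mn => Z.sg mn A A B) atTop (𝓝 0) := by
  -- D = A ∩ B, A' = A \ B, B' = B \ A
  have hDm : MeasurableSet (A ∩ B) := hA.inter hB
  have hA'm : MeasurableSet (A \ B) := hA.diff hB
  have hB'm : MeasurableSet (B \ A) := hB.diff hA
  have hdDA' : Disjoint (A ∩ B) (A \ B) :=
    Set.disjoint_left.mpr (fun x hx hx' => hx'.2 hx.2)
  have hdDB' : Disjoint (A ∩ B) (B \ A) :=
    Set.disjoint_left.mpr (fun x hx hx' => hx'.2 hx.1)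
  have hdAB' : Disjoint A (B \ A) :=
    Set.disjoint_left.mpr (fun x hx hx' => hx'.2 hx)
  have hAeq : (A ∩ B) ∪ (A \ B) = A := Set.inter_union_sdiff A B
  have hBeq : (A ∩ B) ∪ (B \ A) = B := by
    rw [Set.inter_comm]; exact Set.inter_union_sdiff B A
  have t1 := Z.sg_AAB_null_disj hM hD hA hB'm hdAB'
  have t2 := Z.sg_diag_null hD hDm
  have t3 := Z.sg_AAB_null_disj hM hD hDm hA'm hdDA'
  have t4 := Z.sg_AAB_null_disj hM hD hA'm hDm hdDA'.symm
  have h := ((t1.add t2).add (t3.const_mul 2)).add t4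
  simp only [add_zero, mul_zero] at h
  refine h.congr (fun mn => ?_)
  unfold sg
  set p : ℤ := (mn.1 : ℤ)
  set q : ℤ := (mn.1 : ℤ) + (mn.2 : ℤ)
  have e1 : Z.sigma p q A A B = Z.sigma p q A A (A ∩ B) + Z.sigma p q A A (B \ A) := by
    conv_lhs => rw [← hBeq]
    rw [Z.sigma_union3 _ _ hdDB' hA hA hDm hB'm]
  have e2 : Z.sigma p q A A (A ∩ B) = Z.sigma p q (A ∩ B) (A ∩ B) (A ∩ B)
      + 2 * Z.sigma p q (A ∩ B) (A \ B) (A ∩ B) + Z.sigma p q (A \ B) (A \ B) (A ∩ B) := by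
    have := Z.sigma_split p q hdDA' hDm hA'm hDm
    rwa [hAeq] at this
  rw [e1, e2, Z.sigma_comm23 p q (A ∩ B) (A \ B) (A ∩ B)]
  ring

/-- step (v.b) -/
theorem sg_ABC_null_disj (hM : Z.Mix2) (hD : Z.Diag3) {A B C : Set Ω} (hA : MeasurableSet A)
    (hB : MeasurableSet B) (hC : MeasurableSet C) (hAB : Disjoint A B) :
    Tendsto (fun mn => Z.sg mn A B C) atTop (𝓝 0) := by
  have t1 := Z.sg_AAB_null hM hD (hA.union hB) hC
  have t2 := Z.sg_AAB_null hM hD hA hC
  have t3 := Z.sg_AAB_null hM hD hB hC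
  have h := ((t1.sub t2).sub t3).const_mul (1 / 2 : ℝ)
  simp only [sub_self, mul_zero] at h
  refine h.congr (fun mn => ?_)
  unfold sg
  rw [Z.sigma_split _ _ hAB hA hB hC]
  ring

/-- step (v.c): the symmetrised defect tends to zero for arbitrary measurable sets -/
theorem sg_null (hM : Z.Mix2) (hD : Z.Diag3) {A B C : Set Ω} (hA : MeasurableSet A)
    (hB : MeasurableSet B) (hC : MeasurableSet C) :
    Tendsto (fun mn => Z.sg mn A B C) atTop (𝓝 0) := by
  have hDm : MeasurableSet (A ∩ B) := hA.inter hB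
  have hA'm : MeasurableSet (A \ B) := hA.diff hB
  have hB'm : MeasurableSet (B \ A) := hB.diff hA
  have hdDA' : Disjoint (A ∩ B) (A \ B) :=
    Set.disjoint_left.mpr (fun x hx hx' => hx'.2 hx.2)
  have hdDB' : Disjoint (A ∩ B) (B \ A) :=
    Set.disjoint_left.mpr (fun x hx hx' => hx'.2 hx.1)
  have hdA'B : Disjoint (A \ B) B :=
    Set.disjoint_left.mpr (fun x hx hx' => hx.2 hx')
  have hAeq : (A ∩ B) ∪ (A \ B) = A := Set.inter_union_sdiff A B
  have hBeq : (A ∩ B) ∪ (B \ A) = B := by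
    rw [Set.inter_comm]; exact Set.inter_union_sdiff B A
  have t1 := Z.sg_ABC_null_disj hM hD hA'm hB hC hdA'B
  have t2 := Z.sg_AAB_null hM hD hDm hC
  have t3 := Z.sg_ABC_null_disj hM hD hDm hB'm hC hdDB'
  have h := (t1.add t2).add t3
  simp only [add_zero] at h
  refine h.congr (fun mn => ?_)
  unfold sg
  set p : ℤ := (mn.1 : ℤ)
  set q : ℤ := (mn.1 : ℤ) + (mn.2 : ℤ)
  have e1 : Z.sigma p q A B C = Z.sigma p q (A ∩ B) B C + Z.sigma p q (A \ B) B C := by
    conv_lhs => rw [← hAeq]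
    rw [Z.sigma_union _ _ hdDA' hDm hA'm hB hC]
  have e2 : Z.sigma p q (A ∩ B) B C = Z.sigma p q (A ∩ B) (A ∩ B) C
      + Z.sigma p q (A ∩ B) (B \ A) C := by
    have := Z.sigma_union2 p q hdDB' hDm hDm hB'm hC
    rwa [hBeq] at this
  rw [e1, e2]
  ring

end ZSys

end Vale.Agent.P102
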